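import Vale.Agent.P037.Construction

namespace Vale.Agent.P037

/-- number of gadget types used on side `s` of gadget `j` -/
def bound (t j : ℕ) (s : Bool) : ℕ := if s then 9 else if j < t then 7 else 9

theorem bound_le (t j : ℕ) (s : Bool) : bound t j s ≤ 9 := by
  unfold bound; split_ifs <;> omega

/-- the role of an element on side `s` of gadget `(j, d)` -/
def Role {t m : ℕ} (b : ℕ) (j : ℕ) (d s : Bool) (r : Elt t m) (i : Fin 10) : Prop :=
  match r.ty with
  | .inl (j', d', s', i') => j'.val = j ∧ d' = d ∧ s' = s ∧ i' = i ∧ i.val < bound t j s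
  | .inr (u, _) =>
      if s then u.val = j + 1 ∧ digit t b (j + 1) r.pos.val = d ∧ i = 9
      else (u.val = j ∧ i = 9) ∨ (u.val = j + 2 ∧ digit t b (j + 1) r.pos.val = d ∧ i = 8)

theorem role_inl {t m : ℕ} {b j : ℕ} {d s : Bool} {r : Elt t m} {i : Fin 10}
    {j' : Fin (t + 1)} {d' s' : Bool} {i' : Fin 10} (h : r.ty = .inl (j', d', s', i')) :
    Role b j d s r i ↔ j'.val = j ∧ d' = d ∧ s' = s ∧ i' = i ∧ i.val < bound t j s := by
  unfold Role; rw [h]

theorem role_inr_true {t m : ℕ} {b j : ℕ} {d : Bool} {r : Elt t m} {i : Fin 10}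
    {u : Fin (t + 2)} {σ : Bool} (h : r.ty = .inr (u, σ)) :
    Role b j d true r i ↔ u.val = j + 1 ∧ digit t b (j + 1) r.pos.val = d ∧ i = 9 := by
  unfold Role; rw [h]; simp

theorem role_inr_false {t m : ℕ} {b j : ℕ} {d : Bool} {r : Elt t m} {i : Fin 10}
    {u : Fin (t + 2)} {σ : Bool} (h : r.ty = .inr (u, σ)) :
    Role b j d false r i ↔
      (u.val = j ∧ i = 9) ∨ (u.val = j + 2 ∧ digit t b (j + 1) r.pos.val = d ∧ i = 8) := by
  unfold Role; rw [h]; simp

theorem role_unique {t m : ℕ} {b j : ℕ} {d s : Bool} {r : Elt t m} {i i' : Fin 10}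
    (h : Role b j d s r i) (h' : Role b j d s r i') : i = i' := by
  rcases hτ : r.ty with ⟨j', d', s', i''⟩ | ⟨u, σ⟩
  · rw [role_inl hτ] at h h'
    exact h.2.2.2.1.symm.trans h'.2.2.2.1
  · cases s
    · rw [role_inr_false hτ] at h h'
      rcases h with h | h <;> rcases h' with h' | h'
      · exact h.2.trans h'.2.symm
      · omega
      · omega
      · exact h.2.2.trans h'.2.2.symm
    · rw [role_inr_true hτ] at h h'
      exact h.2.2.trans h'.2.2.symm

theorem role_gadget {t m : ℕ} {b j j' : ℕ} {d s d' s' : Bool} {r : Elt t m} {i i' : Fin 10}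
    (hr : r.ty.isLeft) (h : Role b j d s r i) (h' : Role b j' d' s' r i') :
    j = j' ∧ d = d' ∧ s = s' := by
  rcases hτ : r.ty with ⟨j'', d'', s'', i''⟩ | ⟨u, σ⟩
  · rw [role_inl hτ] at h h'
    exact ⟨h.1.symm.trans h'.1, h.2.1.symm.trans h'.2.1, h.2.2.1.symm.trans h'.2.2.1⟩
  · rw [hτ] at hr; simp at hr

/-- class of a main element -/
def Ty.cls {t : ℕ} : Ty t → ℕ
  | .inl _ => 0
  | .inr (u, _) => u.val

/-- main-main adjacency -/
def MAdj (t b u x u' x' : ℕ) : Prop :=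
  (u' = u + 1 ∧ blk t b u x = blk t b u x') ∨ (u = u' + 1 ∧ blk t b u' x = blk t b u' x')

theorem MAdj_symm {t b u x u' x' : ℕ} (h : MAdj t b u x u' x') : MAdj t b u' x' u x := by
  rcases h with h | h
  · exact Or.inr ⟨h.1, h.2.symm⟩
  · exact Or.inl ⟨h.1, h.2.symm⟩

/-- the adjacency relation of the host matrix -/
def Adj {t m : ℕ} (b : ℕ) (r c : Elt t m) : Prop :=
  (¬ r.ty.isLeft ∧ ¬ c.ty.isLeft ∧ MAdj t b r.ty.cls r.pos.val c.ty.cls c.pos.val) ∨
  ((r.ty.isLeft ∨ c.ty.isLeft) ∧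
    ∃ j d s i i', Role b j d s r i ∧ Role b j d (!s) c i' ∧ pat i i' = 1)

theorem Adj.symm {t m b : ℕ} {r c : Elt t m} (h : Adj b r c) : Adj b c r := by
  rcases h with ⟨h1, h2, h3⟩ | ⟨h1, j, d, s, i, i', h2, h3, h4⟩
  · exact Or.inl ⟨h2, h1, MAdj_symm h3⟩
  · refine Or.inr ⟨h1.symm, j, d, !s, i', i, h3, by simpa using h2, by rw [pat_symm, h4]⟩

theorem adj_comm {t m b : ℕ} {r c : Elt t m} : Adj b r c ↔ Adj b c r := ⟨Adj.symm, Adj.symm⟩

theorem adj_main {t m b : ℕ} {r c : Elt t m} (hr : ¬ r.ty.isLeft) (hc : ¬ c.ty.isLeft) :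
    Adj b r c ↔ MAdj t b r.ty.cls r.pos.val c.ty.cls c.pos.val := by
  constructor
  · rintro (⟨_, _, h⟩ | ⟨h | h, _⟩)
    · exact h
    · exact absurd h hr
    · exact absurd h hc
  · intro h; exact Or.inl ⟨hr, hc, h⟩

theorem adj_gad {t m b : ℕ} {r c : Elt t m} (h : r.ty.isLeft ∨ c.ty.isLeft) :
    Adj b r c ↔ ∃ j d s i i', Role b j d s r i ∧ Role b j d (!s) c i' ∧ pat i i' = 1 := by
  constructor
  · rintro (⟨h1, h2, _⟩ | ⟨_, h'⟩)
    · rcases h with h | h
      · exact absurd h h1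
      · exact absurd h h2
    · exact h'
  · intro h'; exact Or.inr ⟨h, h'⟩

theorem adj_of_role {t m b j : ℕ} {d s : Bool} {r c : Elt t m} {i i' : Fin 10}
    (h : r.ty.isLeft ∨ c.ty.isLeft) (hr : Role b j d s r i) (hc : Role b j d (!s) c i') :
    Adj b r c ↔ pat i i' = 1 := by
  rw [adj_gad h]
  constructor
  · rintro ⟨j1, d1, s1, i1, i1', h1, h2, h3⟩
    have : j = j1 ∧ d = d1 ∧ s = s1 := by
      rcases h with h | h
      · exact role_gadget h hr h1
      · have := role_gadget h hc h2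
        refine ⟨this.1, this.2.1, by simpa using this.2.2⟩
    obtain ⟨rfl, rfl, rfl⟩ := this
    rw [role_unique hr h1, role_unique hc h2, h3]
  · intro h'; exact ⟨j, d, s, i, i', hr, hc, h'⟩

/-- gadget elements of the same type have the same neighbours -/
theorem adj_congr_gad {t m b : ℕ} {r r' c : Elt t m} (hr : r.ty.isLeft) (h : r.ty = r'.ty) :
    Adj b r c ↔ Adj b r' c := by
  have hr' : r'.ty.isLeft := h ▸ hr
  rw [adj_gad (Or.inl hr), adj_gad (Or.inl hr')]
  rcases hτ : r.ty with ⟨j'', d'', s'', i''⟩ | ⟨u, σ⟩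
  · have hτ' : r'.ty = .inl (j'', d'', s'', i'') := h ▸ hτ
    simp only [role_inl hτ, role_inl hτ']
  · rw [hτ] at hr; simp at hr

/-- main elements of the same colour have the same gadget neighbours -/
theorem adj_congr_colour {t m b : ℕ} {g c c' : Elt t m} (hg : g.ty.isLeft)
    (hc : ¬ c.ty.isLeft) (hc' : ¬ c'.ty.isLeft) (hu : c.ty.cls = c'.ty.cls)
    (h1 : digit t b c.ty.cls c.pos.val = digit t b c'.ty.cls c'.pos.val)
    (h2 : digit t b (c.ty.cls - 1) c.pos.val = digit t b (c'.ty.cls - 1) c'.pos.val) :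
    Adj b g c ↔ Adj b g c' := by
  rw [adj_gad (Or.inl hg), adj_gad (Or.inl hg)]
  rcases hτ : c.ty with a | ⟨u, σ⟩
  · rw [hτ] at hc; simp at hc
  rcases hτ' : c'.ty with a | ⟨u', σ'⟩
  · rw [hτ'] at hc'; simp at hc'
  simp only [hτ, hτ', Ty.cls] at hu h1 h2
  have key : ∀ j d s i, Role b j d s c i ↔ Role b j d s c' i := by
    intro j d s i
    cases s
    · rw [role_inr_false hτ, role_inr_false hτ', ← hu]
      by_cases h : u.val = j + 2
      · have e : u.val - 1 = j + 1 := by omega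
        rw [← hu, e] at h2
        rw [h2]
      · simp [h]
    · rw [role_inr_true hτ, role_inr_true hτ', ← hu]
      by_cases h : u.val = j + 1
      · rw [← hu, h] at h1
        rw [h1]
      · simp [h]
  simp only [key]

theorem MAdj_congr {t b u x y u' x' : ℕ} (h : blk t b u x = blk t b u y) :
    MAdj t b u x u' x' ↔ MAdj t b u y u' x' := by
  unfold MAdj
  by_cases h1 : u = u' + 1
  · have h2 : blk t b u' x = blk t b u' y := blk_of_succ (h1 ▸ h)
    rw [h, h2]
  · simp [h1, h]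

/-- a copy of the pattern in a relation -/
def IsCopy {I : Type*} [LinearOrder I] (R : I → I → Prop) (ρ γ : Fin 10 → I) : Prop :=
  StrictMono ρ ∧ StrictMono γ ∧ ∀ i j, R (ρ i) (γ j) ↔ pat i j = 1

theorem IsCopy.swap {I : Type*} [LinearOrder I] {R : I → I → Prop} {ρ γ : Fin 10 → I}
    (h : IsCopy R ρ γ) : IsCopy (fun a b => R b a) γ ρ :=
  ⟨h.2.1, h.1, fun i j => by rw [pat_symm]; exact h.2.2 j i⟩

theorem IsCopy.swap_adj {t m b : ℕ} {ρ γ : Fin 10 → Elt t m}
    (h : IsCopy (Adj b) ρ γ) : IsCopy (Adj b) γ ρ :=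
  ⟨h.2.1, h.1, fun i j => by rw [pat_symm, adj_comm]; exact h.2.2 j i⟩

theorem fin2_eq_of_iff {a b : Fin 2} (h : a = 1 ↔ b = 1) : a = b := by
  revert a b; decide

theorem not_isLeft_of_le {t m : ℕ} {ρ : Fin 10 → Elt t m} (hρ : StrictMono ρ) {i i' : Fin 10}
    (hi : i ≤ i') (h : ¬ (ρ i).ty.isLeft) : ¬ (ρ i').ty.isLeft := by
  rcases hi.lt_or_eq with hi | hi
  · exact fun h' => h (isLeft_of_lt (hρ hi) h')
  · exact hi ▸ h

/-- the first column of a copy is a gadget column -/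
theorem IsCopy.first_isLeft {t m b : ℕ} {ρ γ : Fin 10 → Elt t m}
    (h : IsCopy (Adj b) ρ γ) : (γ 0).ty.isLeft := by
  by_contra h0
  have hγ : ∀ j, ¬ (γ j).ty.isLeft := fun j => not_isLeft_of_le h.2.1 (Fin.zero_le j) h0
  by_cases h4 : (ρ 4).ty.isLeft
  · -- rows 0..4 are gadget rows
    have hρ : ∀ i : Fin 10, i.val ≤ 4 → (ρ i).ty.isLeft := by
      intro i hi
      by_contra hc
      exact not_isLeft_of_le h.1 (show i ≤ 4 from hi) hc h4
    have hρ0 := hρ 0 (by simp)
    obtain ⟨j0, d0, s0, i0, _, hr0, -, -⟩ :=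
      (adj_gad (Or.inl hρ0)).mp ((h.2.2 0 0).mpr (pat_zero_left 0))
    have hcls : ∀ j, (s0 = false ∧ (γ j).ty.cls = j0 + 1) ∨
        (s0 = true ∧ ((γ j).ty.cls = j0 ∨ (γ j).ty.cls = j0 + 2)) := by
      intro j
      obtain ⟨j1, d1, s1, i1, i2, hr1, hr2, -⟩ :=
        (adj_gad (Or.inl hρ0)).mp ((h.2.2 0 j).mpr (pat_zero_left j))
      obtain ⟨rfl, rfl, rfl⟩ := role_gadget hρ0 hr0 hr1
      rcases hτ : (γ j).ty with a | ⟨u, σ⟩
      · have := hγ j; rw [hτ] at this; simp at this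
      · cases s0
        · rw [Bool.not_false, role_inr_true hτ] at hr2
          left; exact ⟨rfl, hr2.1⟩
        · rw [Bool.not_true, role_inr_false hτ] at hr2
          right; refine ⟨rfl, ?_⟩
          rcases hr2 with h' | h'
          · left; exact h'.1
          · right; exact h'.1
    let φ : Fin 9 → Bool × Bool × Bool := fun j =>
      (decide ((γ j.castSucc).ty.cls = j0),
        digit t b (γ j.castSucc).ty.cls (γ j.castSucc).pos.val,
        digit t b ((γ j.castSucc).ty.cls - 1) (γ j.castSucc).pos.val)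
    obtain ⟨j, j', hne, hφ⟩ := Fintype.exists_ne_map_eq_of_card_lt φ (by simp)
    simp only [φ, Prod.mk.injEq, decide_eq_decide] at hφ
    have hu : (γ j.castSucc).ty.cls = (γ j'.castSucc).ty.cls := by
      have a := hcls j.castSucc
      have a' := hcls j'.castSucc
      have a'' := hφ.1
      cases s0 <;> simp at a a' <;> omega
    apply hne
    have := pat_cols j.castSucc j'.castSucc (by simp) (by simp) (fun i hi => by
      apply fin2_eq_of_iff
      rw [← h.2.2, ← h.2.2]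
      exact adj_congr_colour (hρ i hi) (hγ _) (hγ _) hu hφ.2.1 hφ.2.2)
    exact Fin.castSucc_injective _ this
  · -- rows 4..8 are main rows
    have hρ : ∀ i : Fin 10, 4 ≤ i.val → ¬ (ρ i).ty.isLeft := fun i hi =>
      not_isLeft_of_le h.1 (show 4 ≤ i from hi) h4
    let ι : Fin 5 → Fin 10 := fun i => ⟨i.val + 4, by omega⟩
    have hι : ∀ i, 4 ≤ (ι i).val := fun i => by simp [ι]
    have hadj : ∀ i, MAdj t b (ρ (ι i)).ty.cls (ρ (ι i)).pos.val (γ 0).ty.cls (γ 0).pos.val :=
      fun i => (adj_main (hρ _ (hι i)) h0).mp ((h.2.2 _ 0).mpr (pat_zero_right _))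
    let φ : Fin 5 → Bool × Bool := fun i =>
      (decide ((ρ (ι i)).ty.cls = (γ 0).ty.cls + 1),
        digit t b (ρ (ι i)).ty.cls (ρ (ι i)).pos.val)
    obtain ⟨i, i', hne, hφ⟩ := Fintype.exists_ne_map_eq_of_card_lt φ (by simp)
    simp only [φ, Prod.mk.injEq, decide_eq_decide] at hφ
    have a := hadj i
    have a' := hadj i'
    have hu : (ρ (ι i)).ty.cls = (ρ (ι i')).ty.cls := by
      have a'' := hφ.1
      unfold MAdj at a a'
      omega
    have hb : blk t b (ρ (ι i)).ty.cls (ρ (ι i)).pos.val =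
        blk t b (ρ (ι i)).ty.cls (ρ (ι i')).pos.val := by
      have hd := hφ.2
      rw [← hu] at a' hd
      unfold MAdj at a a'
      rcases a with a | a <;> rcases a' with a' | a'
      · exact a.2.trans a'.2.symm
      · omega
      · omega
      · rw [a.1] at hd ⊢
        exact blk_succ_of (a.2.trans a'.2.symm) hd
    apply hne
    have := pat_rows (ι i) (ι i') (by simp [ι]; omega) (by simp [ι]; omega) (fun j => by
      apply fin2_eq_of_iff
      rw [← h.2.2, ← h.2.2, adj_main (hρ _ (hι i)) (hγ j), adj_main (hρ _ (hι i')) (hγ j), ← hu]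
      exact MAdj_congr hb)
    simp only [ι, Fin.mk.injEq] at this
    exact Fin.ext (by omega)

end Vale.Agent.P037
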