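import Mathlib

namespace Vale.Agent.P037

/-- The forbidden pattern. -/
def pat : Matrix (Fin 10) (Fin 10) (Fin 2) :=
  !![1,1,1,1,1,1,1,1,1,1;
     1,1,0,0,0,1,0,0,1,0;
     1,0,1,0,0,1,1,0,0,0;
     1,0,0,1,0,0,1,1,0,1;
     1,0,0,0,1,0,0,1,1,1;
     1,1,1,0,0,0,0,0,0,0;
     1,0,1,1,0,0,0,0,0,0;
     1,0,0,1,1,0,0,1,0,1;
     1,1,0,0,1,0,0,0,0,0;
     1,0,0,1,1,0,0,1,0,1]

theorem pat_symm : ∀ i j, pat i j = pat j i := by
  intro i j; fin_cases i <;> fin_cases j <;> rfl
theorem pat_zero_left : ∀ j, pat 0 j = 1 := by decide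
theorem pat_zero_right : ∀ j, pat j 0 = 1 := by decide
theorem pat_seven : ∀ i, pat i 7 = pat i 9 := by decide
theorem pat_99 : pat 9 9 = 1 := by decide
theorem pat_79 : pat 7 9 = 1 := by decide
theorem pat_89 : pat 8 9 = 0 := by decide
theorem pat_98 : pat 9 8 = 0 := by decide
theorem pat_cols : ∀ j j' : Fin 10, j.val < 9 → j'.val < 9 →
    (∀ i : Fin 10, i.val ≤ 4 → pat i j = pat i j') → j = j' := by decide
theorem pat_rows : ∀ i i' : Fin 10, i.val < 9 → i'.val < 9 →
    (∀ j : Fin 10, pat i j = pat i' j) → i = i' := fun i i' h h' hj =>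
  pat_cols i i' h h' (fun j _ => by rw [pat_symm j i, pat_symm j i', hj])
theorem pat_consec : ∀ i i' : Fin 10, i'.val = i.val + 1 →
    ¬ (∀ j : Fin 10, pat i j = pat i' j) := by
  intro i i' h hj
  by_cases h9 : i'.val < 9
  · have := pat_rows i i' (by omega) h9 hj
    omega
  · have h1 : i' = 9 := Fin.ext (by have := i'.isLt; simp; omega)
    have h2 : i = 8 := Fin.ext (by have := i'.isLt; simp; omega)
    have := hj 9
    rw [h1, h2, pat_89, pat_99] at this
    exact absurd this (by decide)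

/-- dyadic block of level `l` -/
def blk (t b l x : ℕ) : ℕ := x / (b * 2 ^ (t - l))

def digit (t b l x : ℕ) : Bool := decide (blk t b l x % 2 = 1)

theorem blk_mono (t b l : ℕ) {x y : ℕ} (h : x ≤ y) : blk t b l x ≤ blk t b l y :=
  Nat.div_le_div_right h

theorem blk_zero (t b : ℕ) {x : ℕ} (h : x < b * 2 ^ t) : blk t b 0 x = 0 := by
  unfold blk
  simpa using Nat.div_eq_of_lt h

theorem blk_succ_lt (t b l x : ℕ) (h : l < t) : blk t b l x = blk t b (l + 1) x / 2 := by
  unfold blk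
  rw [Nat.div_div_eq_div_mul]
  congr 1
  have : t - l = (t - (l + 1)) + 1 := by omega
  rw [this, pow_succ]; ring

theorem blk_succ_ge (t b l x : ℕ) (h : t ≤ l) : blk t b l x = blk t b (l + 1) x := by
  unfold blk
  have h1 : t - l = 0 := by omega
  have h2 : t - (l + 1) = 0 := by omega
  rw [h1, h2]

theorem blk_of_succ {t b l x y : ℕ} (h : blk t b (l + 1) x = blk t b (l + 1) y) :
    blk t b l x = blk t b l y := by
  rcases lt_or_ge l t with hl | hl
  · rw [blk_succ_lt t b l x hl, blk_succ_lt t b l y hl, h]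
  · rw [blk_succ_ge t b l x hl, blk_succ_ge t b l y hl, h]

theorem blk_succ_of {t b l x y : ℕ} (h : blk t b l x = blk t b l y)
    (hd : digit t b (l + 1) x = digit t b (l + 1) y) :
    blk t b (l + 1) x = blk t b (l + 1) y := by
  rcases lt_or_ge l t with hl | hl
  · rw [blk_succ_lt t b l x hl, blk_succ_lt t b l y hl] at h
    unfold digit at hd
    have hd' := decide_eq_decide.mp hd
    omega
  · rw [← blk_succ_ge t b l x hl, ← blk_succ_ge t b l y hl, h]

/-- types of rows / columns -/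
abbrev Ty (t : ℕ) := (Fin (t + 1) × Bool × Bool × Fin 10) ⊕ (Fin (t + 2) × Bool)

theorem card_Ty (t : ℕ) : Fintype.card (Ty t) = 42 * t + 44 := by
  simp [Ty]; ring

def Ty.inner {t : ℕ} : Ty t → Prop
  | .inl _ => False
  | .inr (u, _) => 1 ≤ u.val

instance {t : ℕ} : DecidablePred (Ty.inner (t := t)) := fun τ => by
  cases τ with
  | inl a => exact isFalse (fun h => h)
  | inr a => exact inferInstanceAs (Decidable (1 ≤ a.1.val))

def Ty.key {t : ℕ} : Ty t → ℕ
  | .inl (j, d, s, i) => 40 * j.val + 20 * d.toNat + 10 * s.toNat + i.val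
  | .inr (u, σ) => 40 * (t + 1) + (if σ then 2 * t + 3 - u.val else u.val)

def Ty.zone {t : ℕ} : Ty t → ℕ
  | .inl _ => 0
  | .inr (u, σ) => if 1 ≤ u.val then 2 else if σ then 3 else 1

theorem Ty.key_inj {t : ℕ} : Function.Injective (Ty.key (t := t)) := by
  rintro (⟨j, d, s, i⟩ | ⟨u, σ⟩) (⟨j', d', s', i'⟩ | ⟨u', σ'⟩) h
  · simp only [Ty.key] at h
    have := i.isLt; have := i'.isLt
    cases d <;> cases d' <;> cases s <;> cases s' <;> simp at h ⊢ <;> omega
  · simp only [Ty.key] at h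
    have := i.isLt; have := j.isLt
    cases d <;> cases s <;> simp at h <;> omega
  · simp only [Ty.key] at h
    have := i'.isLt; have := j'.isLt
    cases d' <;> cases s' <;> simp at h <;> omega
  · simp only [Ty.key] at h
    have := u.isLt; have := u'.isLt
    cases σ <;> cases σ' <;> simp at h ⊢ <;> omega

theorem Ty.inner_iff_zone {t : ℕ} (τ : Ty t) : τ.inner ↔ τ.zone = 2 := by
  rcases τ with a | ⟨u, σ⟩
  · simp [Ty.inner, Ty.zone]
  · simp only [Ty.inner, Ty.zone]
    split_ifs <;> simp_all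

/-- rows / columns -/
def Elt (t m : ℕ) := Ty t × Fin m

instance (t m : ℕ) : Fintype (Elt t m) := inferInstanceAs (Fintype (Ty t × Fin m))

def Elt.ty {t m : ℕ} (r : Elt t m) : Ty t := r.1
def Elt.pos {t m : ℕ} (r : Elt t m) : Fin m := r.2
def Elt.mk' {t m : ℕ} (τ : Ty t) (x : Fin m) : Elt t m := (τ, x)

@[simp] theorem Elt.ty_mk' {t m : ℕ} (τ : Ty t) (x : Fin m) : (Elt.mk' τ x).ty = τ := rfl
@[simp] theorem Elt.pos_mk' {t m : ℕ} (τ : Ty t) (x : Fin m) : (Elt.mk' τ x).pos = x := rfl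

theorem Elt.ext' {t m : ℕ} {r r' : Elt t m} (h1 : r.ty = r'.ty) (h2 : r.pos = r'.pos) : r = r' :=
  Prod.ext h1 h2

theorem card_Elt (t m : ℕ) : Fintype.card (Elt t m) = (42 * t + 44) * m := by
  rw [← card_Ty]
  change Fintype.card (Ty t × Fin m) = _
  simp

def Elt.key {t m : ℕ} (r : Elt t m) : ℕ ×ₗ ℕ ×ₗ ℕ :=
  toLex (r.ty.zone, toLex (if r.ty.inner then r.pos.val else r.ty.key,
    if r.ty.inner then r.ty.key else r.pos.val))

theorem Elt.key_inj {t m : ℕ} : Function.Injective (Elt.key (t := t) (m := m)) := by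
  intro r r' h
  simp only [Elt.key, toLex_inj, Prod.mk.injEq] at h
  obtain ⟨h1, h2, h3⟩ := h
  have hi : r.ty.inner ↔ r'.ty.inner := by rw [Ty.inner_iff_zone, Ty.inner_iff_zone, h1]
  by_cases hr : r.ty.inner
  · have hr' := hi.mp hr
    simp only [hr, hr', if_true] at h2 h3
    exact Elt.ext' (Ty.key_inj h3) (Fin.ext h2)
  · have hr' : ¬ r'.ty.inner := fun h => hr (hi.mpr h)
    simp only [hr, hr', if_false] at h2 h3
    exact Elt.ext' (Ty.key_inj h2) (Fin.ext h3)

instance (t m : ℕ) : LinearOrder (Elt t m) := LinearOrder.lift' Elt.key Elt.key_inj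

theorem Elt.lt_iff {t m : ℕ} (r r' : Elt t m) : r < r' ↔
    r.ty.zone < r'.ty.zone ∨ (r.ty.zone = r'.ty.zone ∧
      ((if r.ty.inner then r.pos.val else r.ty.key) < (if r'.ty.inner then r'.pos.val else r'.ty.key) ∨
      ((if r.ty.inner then r.pos.val else r.ty.key) = (if r'.ty.inner then r'.pos.val else r'.ty.key) ∧
        (if r.ty.inner then r.ty.key else r.pos.val) < (if r'.ty.inner then r'.ty.key else r'.pos.val)))) := by
  change r.key < r'.key ↔ _
  simp only [Elt.key, Prod.Lex.toLex_lt_toLex]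

/-- zones are monotone in the type key -/
theorem Ty.zone_mono {t : ℕ} {τ τ' : Ty t} (h : τ.key < τ'.key) : τ.zone ≤ τ'.zone := by
  rcases τ with ⟨j, d, s, i⟩ | ⟨u, σ⟩ <;> rcases τ' with ⟨j', d', s', i'⟩ | ⟨u', σ'⟩
  · simp [Ty.zone]
  · simp [Ty.zone]
  · exfalso
    simp only [Ty.key] at h
    have := i'.isLt; have := j'.isLt
    cases d' <;> cases s' <;> simp at h <;> omega
  · simp only [Ty.key, Ty.zone] at h ⊢
    have := u.isLt; have := u'.isLt
    cases σ <;> cases σ' <;> simp at h ⊢ <;> split_ifs <;> omega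

/-- selected representative of a type -/
def sel {t m : ℕ} (w x : Fin m) (τ : Ty t) : Elt t m := Elt.mk' τ (if τ.inner then x else w)

theorem sel_lt {t m : ℕ} (w x : Fin m) {τ τ' : Ty t} (h : τ.key < τ'.key) :
    sel w x τ < sel w x τ' := by
  rw [Elt.lt_iff]
  have hz := Ty.zone_mono h
  rcases hz.lt_or_eq with hz | hz
  · left; simpa [sel] using hz
  · right
    have hi : τ.inner ↔ τ'.inner := by rw [Ty.inner_iff_zone, Ty.inner_iff_zone, hz]
    refine ⟨by simpa [sel] using hz, ?_⟩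
    by_cases hr : τ.inner
    · have hr' := hi.mp hr
      simp [sel, hr, hr', h]
    · have hr' : ¬ τ'.inner := fun h => hr (hi.mpr h)
      simp [sel, hr, hr', h]

theorem pos_le_of_lt {t m : ℕ} {r r' : Elt t m} (h : r < r') (hr : r.ty.inner) (hr' : r'.ty.inner) :
    r.pos.val ≤ r'.pos.val := by
  rw [Elt.lt_iff] at h
  have h1 := (Ty.inner_iff_zone _).mp hr
  have h2 := (Ty.inner_iff_zone _).mp hr'
  simp only [hr, hr', if_true] at h
  omega

theorem zone_le_of_lt {t m : ℕ} {r r' : Elt t m} (h : r < r') : r.ty.zone ≤ r'.ty.zone := by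
  rw [Elt.lt_iff] at h
  omega

theorem Ty.isLeft_iff_zone {t : ℕ} (τ : Ty t) : τ.isLeft ↔ τ.zone = 0 := by
  rcases τ with a | ⟨u, σ⟩
  · simp [Ty.zone]
  · simp only [Ty.zone]
    split_ifs <;> simp

theorem isLeft_of_lt {t m : ℕ} {r r' : Elt t m} (h : r < r') (hr' : r'.ty.isLeft) :
    r.ty.isLeft := by
  have := zone_le_of_lt h
  rw [Ty.isLeft_iff_zone] at hr' ⊢
  omega

theorem key_le_of_lt {t m : ℕ} {r r' : Elt t m} (h : r < r') (hr' : r'.ty.isLeft) :
    r.ty.key ≤ r'.ty.key := by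
  have hr := isLeft_of_lt h hr'
  rw [Elt.lt_iff] at h
  rw [Ty.isLeft_iff_zone] at hr hr'
  have h1 : ¬ r.ty.inner := by rw [Ty.inner_iff_zone]; omega
  have h2 : ¬ r'.ty.inner := by rw [Ty.inner_iff_zone]; omega
  simp only [h1, h2, if_false] at h
  omega

end Vale.Agent.P037
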