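import Mathlib

namespace Vale.Agent.P037

/-- The set of ordered copies of the binary `k × k` matrix `H` in the binary `n × n` matrix `A`:
pairs of strictly increasing index choices (rows `r`, columns `c`) with `A (r i) (c j) = H i j`. -/
def copies {k n : ℕ} (H : Matrix (Fin k) (Fin k) (Fin 2)) (A : Matrix (Fin n) (Fin n) (Fin 2)) :
    Set ((Fin k → Fin n) × (Fin k → Fin n)) :=
  {p | StrictMono p.1 ∧ StrictMono p.2 ∧ ∀ i j, A (p.1 i) (p.2 j) = H i j}

/-- `N_H(A)`, the number of ordered copies of `H` in `A`. -/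
noncomputable def numCopies {k n : ℕ} (H : Matrix (Fin k) (Fin k) (Fin 2))
    (A : Matrix (Fin n) (Fin n) (Fin 2)) : ℕ :=
  (copies H A).ncard

/-- The number of entries in which `A` and `B` differ. -/
def numDiff {n : ℕ} (A B : Matrix (Fin n) (Fin n) (Fin 2)) : ℕ :=
  (Finset.univ.filter fun p : Fin n × Fin n => A p.1 p.2 ≠ B p.1 p.2).card

/-- `dist_H(A)`: the least number of entries in which `A` differs from an `H`-free matrix `B`
(`N_H(B) = 0`), divided by `n ^ 2`. -/
noncomputable def distFree {k n : ℕ} (H : Matrix (Fin k) (Fin k) (Fin 2))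
    (A : Matrix (Fin n) (Fin n) (Fin 2)) : ℝ :=
  ((sInf {d : ℕ | ∃ B : Matrix (Fin n) (Fin n) (Fin 2), numCopies H B = 0 ∧ numDiff A B = d} : ℕ) : ℝ)
    / (n : ℝ) ^ 2

end Vale.Agent.P037
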