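import Vale.Agent.P037.Few

namespace Vale.Agent.P037

/-- `R` agrees with the host on all robust selected entries -/
def Robust {t m : ℕ} (b : ℕ) (R : Elt t m → Elt t m → Prop) (x y z : Fin m) : Prop :=
  ∀ τ τ' : Ty t, ¬ (τ.inner ∧ τ'.inner) →
    (R (sel y x τ) (sel z x τ') ↔ Adj b (sel y x τ) (sel z x τ'))

theorem Robust.swap {t m b : ℕ} {R : Elt t m → Elt t m → Prop} {x y z : Fin m}
    (h : Robust b R x y z) : Robust b (fun a c => R c a) x z y := by
  intro τ τ' hτ
  rw [adj_comm]
  exact h τ' τ (fun h' => hτ h'.symm)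

@[simp] theorem sel_ty {t m : ℕ} (w x : Fin m) (τ : Ty t) : (sel w x τ).ty = τ := rfl

theorem sel_pos_inner {t m : ℕ} (w x : Fin m) {τ : Ty t} (h : τ.inner) : (sel w x τ).pos = x := by
  simp [sel, h]

theorem not_inner_of_isLeft {t : ℕ} {τ : Ty t} (h : τ.isLeft) : ¬ τ.inner := by
  rw [Ty.isLeft_iff_zone] at h
  rw [Ty.inner_iff_zone]; omega

theorem copy_of_types {t m b j : ℕ} {d s : Bool} {R : Elt t m → Elt t m → Prop} {x y z : Fin m}
    (hR : Robust b R x y z) (rt ct : Fin 10 → Ty t)
    (hrt : StrictMono fun i => (rt i).key) (hct : StrictMono fun i => (ct i).key)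
    (rr cr : Fin 10 → Fin 10)
    (h1 : ∀ i, Role b j d s (sel y x (rt i)) (rr i))
    (h2 : ∀ i, Role b j d (!s) (sel z x (ct i)) (cr i))
    (h3 : ∀ i i', pat (rr i) (cr i') = pat i i')
    (h4 : ∀ i i', ¬ (rt i).isLeft → ¬ (ct i').isLeft →
      (R (sel y x (rt i)) (sel z x (ct i')) ↔ pat i i' = 1)) :
    ∃ ρ γ, IsCopy R ρ γ := by
  refine ⟨fun i => sel y x (rt i), fun i => sel z x (ct i),
    fun i i' h => sel_lt _ _ (hrt h), fun i i' h => sel_lt _ _ (hct h), fun i i' => ?_⟩
  by_cases hl : (rt i).isLeft ∨ (ct i').isLeft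
  · rw [hR (rt i) (ct i') (by
      rintro ⟨a, a'⟩
      rcases hl with hl | hl
      · exact not_inner_of_isLeft hl a
      · exact not_inner_of_isLeft hl a'), adj_of_role (by simpa using hl) (h1 i) (h2 i'), h3]
  · rw [not_or] at hl
    exact h4 i i' hl.1 hl.2

/-- main type of class `u` -/
def mainTy {t : ℕ} (u : ℕ) (hu : u < t + 2) (σ : Bool) : Ty t := .inr (⟨u, hu⟩, σ)

theorem mainTy_inner {t u : ℕ} (hu : u < t + 2) (σ : Bool) (h : 1 ≤ u) :
    (mainTy u hu σ).inner := h

theorem role_sel_gad {t m b : ℕ} (j : Fin (t + 1)) (d s : Bool) (i : Fin 10) (w x : Fin m)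
    (hi : i.val < bound t j s) : Role b j d s (sel w x (Sum.inl (j, d, s, i))) i := by
  rw [role_inl (sel_ty _ _ _)]
  exact ⟨rfl, rfl, rfl, rfl, hi⟩

theorem role_sel_E {t m b j : ℕ} (hj : j + 1 < t + 2) (σ : Bool) (w x : Fin m) :
    Role b j (digit t b (j + 1) x.val) true (sel w x (mainTy (j + 1) hj σ)) 9 := by
  rw [role_inr_true (u := ⟨j + 1, hj⟩) (σ := σ) rfl, sel_pos_inner _ _ (mainTy_inner hj σ (by omega))]
  exact ⟨rfl, rfl, rfl⟩

theorem role_sel_F0 {t m b j : ℕ} (d : Bool) (hj : j < t + 2) (σ : Bool) (w x : Fin m) :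
    Role b j d false (sel w x (mainTy j hj σ)) 9 := by
  rw [role_inr_false (u := ⟨j, hj⟩) (σ := σ) rfl]
  exact Or.inl ⟨rfl, rfl⟩

theorem role_sel_F2 {t m b j : ℕ} (hj : j + 2 < t + 2) (σ : Bool) (w x : Fin m) :
    Role b j (digit t b (j + 1) x.val) false (sel w x (mainTy (j + 2) hj σ)) 8 := by
  rw [role_inr_false (u := ⟨j + 2, hj⟩) (σ := σ) rfl, sel_pos_inner _ _ (mainTy_inner hj σ (by omega))]
  exact Or.inr ⟨rfl, rfl, rfl⟩

theorem step_lemma {t m b j : ℕ} {R : Elt t m → Elt t m → Prop} {x y z : Fin m}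
    (hR : Robust b R x y z) (hfree : ¬ ∃ ρ γ, IsCopy R ρ γ) (hj : j < t) (σ σ' : Bool)
    (h : ∀ σ'', R (sel y x (mainTy (j + 1) (by omega) σ)) (sel z x (mainTy j (by omega) σ''))) :
    R (sel y x (mainTy (j + 1) (by omega) σ)) (sel z x (mainTy (j + 2) (by omega) σ')) := by
  by_contra hn
  apply hfree
  set d := digit t b (j + 1) x.val with hd
  let J : Fin (t + 1) := ⟨j, by omega⟩
  let rt : Fin 10 → Ty t := fun i =>
    if i.val < 9 then .inl (J, d, true, i) else mainTy (j + 1) (by omega) σ
  let ct : Fin 10 → Ty t := fun i =>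
    if i.val < 7 then .inl (J, d, false, i) else
      if i.val = 7 then mainTy j (by omega) false else
        if i.val = 8 then mainTy (j + 2) (by omega) σ' else mainTy j (by omega) true
  refine copy_of_types (j := j) (d := d) (s := true) hR rt ct ?_ ?_ id
    (fun i => if i = 7 then 9 else i) ?_ ?_ ?_ ?_
  · rw [Fin.strictMono_iff_lt_succ]
    intro i
    fin_cases i <;> simp [rt, J, Ty.key, mainTy]
    cases d <;> cases σ <;> simp <;> omega
  · rw [Fin.strictMono_iff_lt_succ]
    intro i
    fin_cases i <;> simp [ct, J, Ty.key, mainTy]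
    · cases d <;> simp <;> omega
    · cases σ' <;> simp
      omega
    · cases σ' <;> simp <;> omega
  · intro i
    by_cases hi : i.val < 9
    · simp only [rt, hi, if_true, id]
      exact role_sel_gad J d true i y x (by simpa [bound] using hi)
    · have : i = 9 := Fin.ext (by have := i.isLt; simp; omega)
      subst this
      exact role_sel_E _ σ y x
  · intro i
    by_cases hi : i.val < 7
    · have : i ≠ 7 := by rintro rfl; simp at hi
      simp only [ct, hi, if_true, this, if_false]
      exact role_sel_gad J d false i z x (by simpa [bound, J, hj] using hi)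
    · have : i = 7 ∨ i = 8 ∨ i = 9 := by
        have := i.isLt
        simp only [Fin.ext_iff]; simp; omega
      rcases this with rfl | rfl | rfl
      · exact role_sel_F0 d _ false z x
      · exact role_sel_F2 _ σ' z x
      · exact role_sel_F0 d _ true z x
  · intro i i'
    by_cases h7 : i' = 7
    · simp [h7, pat_seven]
    · simp [h7]
  · intro i i' hi hi'
    have e1 : i = 9 := by
      by_contra hc
      have : i.val < 9 := by
        have := i.isLt
        have : i.val ≠ 9 := fun h => hc (Fin.ext h)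
        omega
      simp [rt, this] at hi
    have e2 : i' = 7 ∨ i' = 8 ∨ i' = 9 := by
      by_contra hc
      have : i'.val < 7 := by
        have := i'.isLt
        simp only [Fin.ext_iff] at hc; simp at hc; omega
      simp [ct, this] at hi'
    subst e1
    rcases e2 with rfl | rfl | rfl
    · exact ⟨fun _ => by decide, fun _ => h false⟩
    · exact ⟨fun h' => absurd h' hn, fun h' => absurd h' (by decide)⟩
    · exact ⟨fun _ => by decide, fun _ => h true⟩

theorem final_lemma {t m b : ℕ} {R : Elt t m → Elt t m → Prop} {x y z : Fin m}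
    (hR : Robust b R x y z)
    (h : R (sel y x (mainTy (t + 1) (by omega) false)) (sel z x (mainTy t (by omega) false))) :
    ∃ ρ γ, IsCopy R ρ γ := by
  set d := digit t b (t + 1) x.val with hd
  let J : Fin (t + 1) := ⟨t, by omega⟩
  let rt : Fin 10 → Ty t := fun i =>
    if i.val < 9 then .inl (J, d, true, i) else mainTy (t + 1) (by omega) false
  let ct : Fin 10 → Ty t := fun i =>
    if i.val < 9 then .inl (J, d, false, i) else mainTy t (by omega) false
  refine copy_of_types (j := t) (d := d) (s := true) hR rt ct ?_ ?_ id id ?_ ?_ ?_ ?_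
  · rw [Fin.strictMono_iff_lt_succ]
    intro i
    fin_cases i <;> simp [rt, J, Ty.key, mainTy]
    cases d <;> simp <;> omega
  · rw [Fin.strictMono_iff_lt_succ]
    intro i
    fin_cases i <;> simp [ct, J, Ty.key, mainTy]
    cases d <;> simp <;> omega
  · intro i
    by_cases hi : i.val < 9
    · simp only [rt, hi, if_true, id]
      exact role_sel_gad J d true i y x (by simpa [bound] using hi)
    · have : i = 9 := Fin.ext (by have := i.isLt; simp; omega)
      subst this
      exact role_sel_E _ false y x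
  · intro i
    by_cases hi : i.val < 9
    · simp only [ct, hi, if_true, id]
      exact role_sel_gad J d false i z x (by simpa [bound, J] using hi)
    · have : i = 9 := Fin.ext (by have := i.isLt; simp; omega)
      subst this
      exact role_sel_F0 d _ false z x
  · intro i i'; rfl
  · intro i i' hi hi'
    have e1 : i = 9 := by
      by_contra hc
      have : i.val < 9 := by
        have := i.isLt
        have : i.val ≠ 9 := fun h => hc (Fin.ext h)
        omega
      simp [rt, this] at hi
    have e2 : i' = 9 := by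
      by_contra hc
      have : i'.val < 9 := by
        have := i'.isLt
        have : i'.val ≠ 9 := fun h => hc (Fin.ext h)
        omega
      simp [ct, this] at hi'
    subst e1 e2
    exact ⟨fun _ => by decide, fun _ => h⟩

theorem base_lemma {t b : ℕ} {R : Elt t (b * 2 ^ t) → Elt t (b * 2 ^ t) → Prop}
    {x y z : Fin (b * 2 ^ t)} (hR : Robust b R x y z) (σ σ' : Bool) :
    R (sel y x (mainTy (0 + 1) (by omega) σ)) (sel z x (mainTy 0 (by omega) σ')) := by
  rw [hR _ _ (by simp [mainTy, Ty.inner]), adj_main (by simp [mainTy]) (by simp [mainTy])]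
  right
  refine ⟨rfl, ?_⟩
  change blk t b 0 _ = blk t b 0 _
  rw [blk_zero t b (Fin.isLt _), blk_zero t b (Fin.isLt _)]

theorem exists_copy_of_robust {t b : ℕ} {R : Elt t (b * 2 ^ t) → Elt t (b * 2 ^ t) → Prop}
    {x y z : Fin (b * 2 ^ t)} (hR : Robust b R x y z) : ∃ ρ γ, IsCopy R ρ γ := by
  by_contra hfree
  have hfree' : ¬ ∃ ρ γ, IsCopy (fun a c => R c a) ρ γ := by
    rintro ⟨ρ, γ, h⟩
    exact hfree ⟨γ, ρ, h.swap⟩
  have claim : ∀ j (hj : j ≤ t), ∀ σ σ',
      R (sel y x (mainTy (j + 1) (by omega) σ)) (sel z x (mainTy j (by omega) σ')) ∧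
      R (sel y x (mainTy j (by omega) σ')) (sel z x (mainTy (j + 1) (by omega) σ)) := by
    intro j
    induction j with
    | zero => exact fun _ σ σ' => ⟨base_lemma hR σ σ', base_lemma hR.swap σ σ'⟩
    | succ j ih =>
      intro hj σ σ'
      exact ⟨step_lemma hR.swap hfree' (by omega) σ' σ (fun σ'' => (ih (by omega) σ' σ'').2),
        step_lemma hR hfree (by omega) σ' σ (fun σ'' => (ih (by omega) σ' σ'').1)⟩
  exact hfree (final_lemma hR (claim t le_rfl false false).1)

open Classical in
theorem exists_robust {t m b : ℕ} (R : Elt t m → Elt t m → Prop)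
    (h : (Finset.univ.filter fun p : Elt t m × Elt t m => ¬ (R p.1 p.2 ↔ Adj b p.1 p.2)).card
      < m ^ 2) : ∃ x y z, Robust b R x y z := by
  by_contra hc
  push Not at hc
  set D := (Finset.univ.filter fun p : Elt t m × Elt t m => ¬ (R p.1 p.2 ↔ Adj b p.1 p.2)) with hD
  let T : Elt t m × Elt t m → Finset (Fin m × Fin m × Fin m) := fun p =>
    Finset.univ.filter fun w => ¬ (p.1.ty.inner ∧ p.2.ty.inner) ∧
      sel w.2.1 w.1 p.1.ty = p.1 ∧ sel w.2.2 w.1 p.2.ty = p.2
  have hT : ∀ p, (T p).card ≤ m := by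
    intro p
    have key : ∀ (f : Fin m → Fin m × Fin m × Fin m), T p ⊆ Finset.univ.image f →
        (T p).card ≤ m := fun f hf =>
      (Finset.card_le_card hf).trans (Finset.card_image_le.trans (by simp))
    by_cases h1 : p.1.ty.inner <;> by_cases h2 : p.2.ty.inner
    · have : T p = ∅ := by
        ext w; simp [T, h1, h2]
      simp [this]
    · apply key (fun v => (p.1.pos, v, p.2.pos))
      rintro ⟨x, y, z⟩ hw
      simp only [T, Finset.mem_filter, Finset.mem_univ, true_and] at hw
      have a := congrArg Elt.pos hw.2.1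
      have a' := congrArg Elt.pos hw.2.2
      simp only [sel, h1, h2, if_true, if_false, Elt.pos_mk'] at a a'
      simp [← a, ← a']
    · apply key (fun v => (p.2.pos, p.1.pos, v))
      rintro ⟨x, y, z⟩ hw
      simp only [T, Finset.mem_filter, Finset.mem_univ, true_and] at hw
      have a := congrArg Elt.pos hw.2.1
      have a' := congrArg Elt.pos hw.2.2
      simp only [sel, h1, h2, if_true, if_false, Elt.pos_mk'] at a a'
      simp [← a, ← a']
    · apply key (fun v => (v, p.1.pos, p.2.pos))
      rintro ⟨x, y, z⟩ hw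
      simp only [T, Finset.mem_filter, Finset.mem_univ, true_and] at hw
      have a := congrArg Elt.pos hw.2.1
      have a' := congrArg Elt.pos hw.2.2
      simp only [sel, h1, h2, if_true, if_false, Elt.pos_mk'] at a a'
      simp [← a, ← a']
  have hsub : (Finset.univ : Finset (Fin m × Fin m × Fin m)) ⊆ D.biUnion T := by
    rintro ⟨x, y, z⟩ -
    have := hc x y z
    unfold Robust at this
    push Not at this
    obtain ⟨τ, τ', h1, h2⟩ := this
    rw [Finset.mem_biUnion]
    refine ⟨(sel y x τ, sel z x τ'), ?_, ?_⟩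
    · simp only [hD, Finset.mem_filter, Finset.mem_univ, true_and]
      tauto
    · exact Finset.mem_filter.mpr ⟨Finset.mem_univ _, fun h' => h1 h'.1 h'.2, rfl, rfl⟩
  have h1 := Finset.card_le_card hsub
  have h2 := Finset.card_biUnion_le_card_mul D T m (fun p _ => hT p)
  simp only [Finset.card_univ, Fintype.card_prod, Fintype.card_fin] at h1
  have hm : 0 < m := by
    rcases Nat.eq_zero_or_pos m with h0 | h0
    · subst h0; simp at h
    · exact h0
  have h3 : D.card * m < m ^ 2 * m := Nat.mul_lt_mul_of_pos_right h hm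
  nlinarith

end Vale.Agent.P037
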