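import Vale.Agent.P037.Adj

namespace Vale.Agent.P037

theorem IsCopy.roles {t m b : ℕ} {ρ γ : Fin 10 → Elt t m} (h : IsCopy (Adj b) ρ γ) :
    ∃ (j : ℕ) (d s : Bool), j ≤ t ∧ (∀ i, ∃ i', Role b j d s (ρ i) i') ∧
      (∀ i, ∃ i', Role b j d (!s) (γ i) i') := by
  have hγ0 := h.first_isLeft
  have hρ0 := h.swap_adj.first_isLeft
  obtain ⟨j0, d0, s0, i0, i0', hr0, hc0, -⟩ :=
    (adj_gad (Or.inl hρ0)).mp ((h.2.2 0 0).mpr (pat_zero_left 0))
  refine ⟨j0, d0, s0, ?_, fun i => ?_, fun i => ?_⟩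
  · rcases hτ : (ρ 0).ty with ⟨j', d', s', i''⟩ | ⟨u, σ⟩
    · rw [role_inl hτ] at hr0
      have := j'.isLt
      omega
    · rw [hτ] at hρ0; simp at hρ0
  · obtain ⟨j1, d1, s1, i1, i1', hr1, hc1, -⟩ :=
      (adj_gad (Or.inr hγ0)).mp ((h.2.2 i 0).mpr (pat_zero_right i))
    obtain ⟨rfl, rfl, hs⟩ := role_gadget hγ0 hc0 hc1
    have : s0 = s1 := by simpa using hs
    subst this
    exact ⟨i1, hr1⟩
  · obtain ⟨j1, d1, s1, i1, i1', hr1, hc1, -⟩ :=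
      (adj_gad (Or.inl hρ0)).mp ((h.2.2 0 i).mpr (pat_zero_left i))
    obtain ⟨rfl, rfl, rfl⟩ := role_gadget hρ0 hr0 hr1
    exact ⟨i1', hc1⟩

theorem IsCopy.role_ge {t m b j : ℕ} {d s : Bool} {ρ γ : Fin 10 → Elt t m}
    (h : IsCopy (Adj b) ρ γ) (hr : ∀ i, ∃ i', Role b j d s (ρ i) i') :
    ∀ (n : ℕ) (hn : n < 10), (ρ ⟨n, hn⟩).ty.isLeft →
      ∀ i', Role b j d s (ρ ⟨n, hn⟩) i' → n ≤ i'.val := by
  intro n
  induction n with
  | zero => intros; omega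
  | succ n ih =>
    intro hn hl i' hi'
    have hlt : ρ ⟨n, by omega⟩ < ρ ⟨n + 1, hn⟩ := h.1 (by simp [Fin.lt_def])
    have hl0 := isLeft_of_lt hlt hl
    obtain ⟨i0, hi0⟩ := hr ⟨n, by omega⟩
    have h1 := ih (by omega) hl0 i0 hi0
    have hk := key_le_of_lt hlt hl
    rcases hτ : (ρ ⟨n, by omega⟩).ty with ⟨j1, d1, s1, i1⟩ | ⟨u, σ⟩
    swap
    · rw [hτ] at hl0; simp at hl0
    rcases hτ' : (ρ ⟨n + 1, hn⟩).ty with ⟨j2, d2, s2, i2⟩ | ⟨u, σ⟩
    swap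
    · rw [hτ'] at hl; simp at hl
    rw [role_inl hτ] at hi0
    rw [role_inl hτ'] at hi'
    obtain ⟨e1, e2, e3, e4, -⟩ := hi0
    obtain ⟨f1, f2, f3, f4, -⟩ := hi'
    subst e2 e3 e4 f2 f3 f4
    rw [hτ, hτ'] at hk
    simp only [Ty.key] at hk
    by_contra hc
    have hii : i1 = i2 := Fin.ext (by omega)
    have hjj : j1 = j2 := Fin.ext (by omega)
    have hty : (ρ ⟨n, by omega⟩).ty = (ρ ⟨n + 1, hn⟩).ty := by rw [hτ, hτ', hii, hjj]
    apply pat_consec ⟨n, by omega⟩ ⟨n + 1, hn⟩ rfl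
    intro c
    apply fin2_eq_of_iff
    rw [← h.2.2, ← h.2.2]
    exact adj_congr_gad hl0 hty

theorem IsCopy.main_of_bound {t m b j : ℕ} {d s : Bool} {ρ γ : Fin 10 → Elt t m}
    (h : IsCopy (Adj b) ρ γ) (hr : ∀ i, ∃ i', Role b j d s (ρ i) i')
    (i : Fin 10) (hi : bound t j s ≤ i.val) : ¬ (ρ i).ty.isLeft := by
  intro hl
  obtain ⟨i', hi'⟩ := hr i
  have h1 := h.role_ge hr i.val i.isLt hl i' hi'
  rcases hτ : (ρ i).ty with ⟨j1, d1, s1, i1⟩ | ⟨u, σ⟩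
  · rw [role_inl hτ] at hi'
    omega
  · rw [hτ] at hl; simp at hl

theorem role_true_main {t m b j : ℕ} {d : Bool} {r : Elt t m} {i : Fin 10}
    (hl : ¬ r.ty.isLeft) (h : Role b j d true r i) :
    r.ty.cls = j + 1 ∧ digit t b (j + 1) r.pos.val = d := by
  rcases hτ : r.ty with a | ⟨u, σ⟩
  · rw [hτ] at hl; simp at hl
  · rw [role_inr_true hτ] at h
    exact ⟨h.1, h.2.1⟩

theorem role_false_main {t m b j : ℕ} {d : Bool} {r : Elt t m} {i : Fin 10}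
    (hl : ¬ r.ty.isLeft) (h : Role b j d false r i) :
    r.ty.cls = j ∨ (r.ty.cls = j + 2 ∧ digit t b (j + 1) r.pos.val = d) := by
  rcases hτ : r.ty with a | ⟨u, σ⟩
  · rw [hτ] at hl; simp at hl
  · rw [role_inr_false hτ] at h
    rcases h with h | h
    · exact Or.inl h.1
    · exact Or.inr ⟨h.1, h.2.1⟩

theorem inner_of_cls {t : ℕ} {τ : Ty t} (h : 1 ≤ τ.cls) : τ.inner := by
  rcases τ with a | ⟨u, σ⟩
  · simp [Ty.cls] at h
  · exact h

theorem cls_le {t : ℕ} (τ : Ty t) : τ.cls ≤ t + 1 := by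
  rcases τ with a | ⟨u, σ⟩
  · simp [Ty.cls]
  · have := u.isLt; simp only [Ty.cls]; omega

theorem adj_iff_blk {t m b j : ℕ} {d : Bool} {f e : Elt t m} {i i' : Fin 10}
    (hf : ¬ f.ty.isLeft) (he : ¬ e.ty.isLeft) (h1 : Role b j d false f i)
    (h2 : Role b j d true e i') :
    Adj b f e ↔ blk t b j f.pos.val = blk t b j e.pos.val := by
  rw [adj_main hf he]
  obtain ⟨e1, e2⟩ := role_true_main he h2
  unfold MAdj
  rcases role_false_main hf h1 with f1 | ⟨f1, f2⟩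
  · rw [e1, f1]
    simp only [show ¬ (j = j + 1 + 1) by omega, false_and, or_false, true_and]
  · rw [e1, f1]
    simp only [show ¬ (j + 1 = j + 2 + 1) by omega, false_and, false_or, true_and]
    exact ⟨blk_of_succ, fun h => blk_succ_of h (f2.trans e2.symm)⟩

theorem IsCopy.blk_eq_aux {t b j : ℕ} {d : Bool} {ρ γ : Fin 10 → Elt t (b * 2 ^ t)}
    (h : IsCopy (Adj b) ρ γ) (hj : j ≤ t) (hr : ∀ i, ∃ i', Role b j d false (ρ i) i')
    (hc : ∀ i, ∃ i', Role b j d true (γ i) i') :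
    blk t b t (ρ 9).pos.val = blk t b t (γ 9).pos.val := by
  have hγ9 : ¬ (γ 9).ty.isLeft := h.swap_adj.main_of_bound hc 9 (bound_le _ _ _)
  have hρ9 : ¬ (ρ 9).ty.isLeft := h.main_of_bound hr 9 (bound_le _ _ _)
  obtain ⟨c9, hc9⟩ := hc 9
  obtain ⟨r9, hr9⟩ := hr 9
  have h9 := (adj_iff_blk hρ9 hγ9 hr9 hc9).mp ((h.2.2 9 9).mpr pat_99)
  rcases hj.lt_or_eq with hj | hj
  · exfalso
    have hb : bound t j false = 7 := by simp [bound, hj]
    have hρ7 : ¬ (ρ 7).ty.isLeft := h.main_of_bound hr 7 (by simp [hb])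
    have hρ8 : ¬ (ρ 8).ty.isLeft := h.main_of_bound hr 8 (by simp [hb])
    obtain ⟨r7, hr7⟩ := hr 7
    obtain ⟨r8, hr8⟩ := hr 8
    have h7 := (adj_iff_blk hρ7 hγ9 hr7 hc9).mp ((h.2.2 7 9).mpr pat_79)
    have h8 : ¬ blk t b j (ρ 8).pos.val = blk t b j (γ 9).pos.val := by
      rw [← adj_iff_blk hρ8 hγ9 hr8 hc9, h.2.2, pat_89]; decide
    apply h8
    rcases Nat.eq_zero_or_pos j with h0 | h0
    · subst h0
      rw [blk_zero t b (ρ 8).pos.isLt, blk_zero t b (γ 9).pos.isLt]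
    · have i7 : (ρ 7).ty.inner := inner_of_cls (by have := role_false_main hρ7 hr7; omega)
      have i8 : (ρ 8).ty.inner := inner_of_cls (by have := role_false_main hρ8 hr8; omega)
      have i9 : (ρ 9).ty.inner := inner_of_cls (by have := role_false_main hρ9 hr9; omega)
      have l1 := blk_mono t b j (pos_le_of_lt (h.1 (show (7 : Fin 10) < 8 by decide)) i7 i8)
      have l2 := blk_mono t b j (pos_le_of_lt (h.1 (show (8 : Fin 10) < 9 by decide)) i8 i9)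
      omega
  · subst hj; exact h9

/-- every copy ends in a finest block -/
theorem IsCopy.blk_eq {t b : ℕ} {ρ γ : Fin 10 → Elt t (b * 2 ^ t)} (h : IsCopy (Adj b) ρ γ) :
    blk t b t (ρ 9).pos.val = blk t b t (γ 9).pos.val := by
  obtain ⟨j, d, s, hj, hr, hc⟩ := h.roles
  cases s
  · exact h.blk_eq_aux hj hr hc
  · exact (h.swap_adj.blk_eq_aux hj hc hr).symm

end Vale.Agent.P037
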