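import Vale.Agent.P037.Far
import Vale.Agent.P037.Defs

namespace Vale.Agent.P037

open Classical in
theorem count_copies {k n D : ℕ} (H : Matrix (Fin (k + 1)) (Fin (k + 1)) (Fin 2))
    (A : Matrix (Fin n) (Fin n) (Fin 2)) (i0 : Fin (k + 1)) (R : Fin n → Fin n → Prop)
    (hR : ∀ r, (Finset.univ.filter fun c => R r c).card ≤ D)
    (h : ∀ p ∈ copies H A, R (p.1 i0) (p.2 i0)) :
    numCopies H A ≤ n ^ (2 * k + 1) * D := by
  let S : (Fin (k + 1) → Fin n) → Finset (Fin (k + 1) → Fin n) := fun ρ =>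
    Fintype.piFinset fun j => if j = i0 then Finset.univ.filter fun c => R (ρ i0) c else Finset.univ
  have hS : ∀ ρ, (S ρ).card ≤ n ^ k * D := by
    intro ρ
    simp only [S, Fintype.card_piFinset]
    rw [← Finset.mul_prod_erase Finset.univ _ (Finset.mem_univ i0)]
    have : ∏ j ∈ Finset.univ.erase i0,
        (if j = i0 then Finset.univ.filter fun c => R (ρ i0) c else Finset.univ).card = n ^ k := by
      rw [Finset.prod_congr rfl (g := fun _ => n)]
      · simp
      · intro j hj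
        simp [Finset.ne_of_mem_erase hj]
    rw [this, mul_comm]
    simp only [if_true]
    exact Nat.mul_le_mul_left _ (hR _)
  have hsub : copies H A ⊆
      ((Finset.univ.biUnion fun ρ => (S ρ).image fun γ => (ρ, γ) : Finset _) : Set _) := by
    rintro ⟨ρ, γ⟩ hp
    simp only [Finset.coe_biUnion, Finset.coe_univ, Set.mem_univ, Set.iUnion_true, Set.mem_iUnion,
      Finset.coe_image, Set.mem_image, Finset.mem_coe]
    refine ⟨ρ, γ, ?_, rfl⟩
    simp only [S, Fintype.mem_piFinset]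
    intro j
    by_cases hj : j = i0
    · subst hj
      simpa using h _ hp
    · simp [hj]
  unfold numCopies
  refine (Set.ncard_le_ncard hsub (Finset.finite_toSet _)).trans ?_
  rw [Set.ncard_coe_finset]
  refine (Finset.card_biUnion_le_card_mul _ _ (n ^ k * D)
    (fun ρ _ => Finset.card_image_le.trans (hS ρ))).trans ?_
  simp only [Finset.card_univ, Fintype.card_pi, Fintype.card_fin, Finset.prod_const]
  apply le_of_eq
  ring

theorem card_div_eq (m b β : ℕ) (hb : 0 < b) :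
    (Finset.univ.filter fun x : Fin m => x.val / b = β).card ≤ b := by
  have : (Finset.univ.filter fun x : Fin m => x.val / b = β).card ≤ (Finset.range b).card := by
    apply Finset.card_le_card_of_injOn (fun x => x.val % b)
    · intro x _
      simp [Nat.mod_lt _ hb]
    · intro x hx y hy hxy
      simp only [Finset.coe_filter, Finset.mem_univ, true_and, Set.mem_ofPred_eq] at hx hy hxy
      apply Fin.ext
      rw [← Nat.div_add_mod x.val b, ← Nat.div_add_mod y.val b, hx, hy, hxy]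
  simpa using this

open Classical in
theorem card_blk (t m b β : ℕ) (hb : 0 < b) :
    (Finset.univ.filter fun c : Elt t m => blk t b t c.pos.val = β).card ≤ (42 * t + 44) * b := by
  have h1 : (Finset.univ.filter fun c : Elt t m => blk t b t c.pos.val = β).card ≤
      ((Finset.univ : Finset (Ty t)) ×ˢ (Finset.univ.filter fun x : Fin m => x.val / b = β)).card := by
    apply Finset.card_le_card_of_injOn (fun c => (c.ty, c.pos))
    · intro c hc
      simp only [Finset.coe_filter, Finset.mem_univ, true_and, Set.mem_ofPred_eq, blk] at hc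
      simpa using hc
    · intro c _ c' _ h
      simp only [Prod.mk.injEq] at h
      exact Elt.ext' h.1 h.2
  rw [Finset.card_product, Finset.card_univ, card_Ty] at h1
  exact h1.trans (Nat.mul_le_mul_left _ (card_div_eq m b β hb))

theorem fin2_eq_one_iff {a b : Fin 2} : a = b ↔ (a = 1 ↔ b = 1) := by
  revert a b; decide

theorem zero_free (n : ℕ) : numCopies pat (0 : Matrix (Fin n) (Fin n) (Fin 2)) = 0 := by
  unfold numCopies
  have : copies pat (0 : Matrix (Fin n) (Fin n) (Fin 2)) = ∅ := by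
    ext p
    simp only [copies, Set.mem_ofPred_eq, Set.mem_empty_iff_false, iff_false]
    rintro ⟨-, -, h⟩
    have := h 0 0
    rw [pat_zero_left] at this
    simp at this
  simp [this]

open Classical in
theorem exists_host (t b n : ℕ) (hb : 0 < b) (hn : (42 * t + 44) * (b * 2 ^ t) ≤ n) :
    ∃ A : Matrix (Fin n) (Fin n) (Fin 2),
      (∀ B, numCopies pat B = 0 → (b * 2 ^ t) ^ 2 ≤ numDiff A B) ∧
      numCopies pat A ≤ n ^ 19 * ((42 * t + 44) * b) := by
  let e : Elt t (b * 2 ^ t) ↪o Fin n :=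
    (monoEquivOfFin (Elt t (b * 2 ^ t)) (card_Elt _ _)).symm.toOrderEmbedding.trans
      (Fin.castLEOrderEmb hn)
  let A : Matrix (Fin n) (Fin n) (Fin 2) := fun r c =>
    if ∃ r0 c0, e r0 = r ∧ e c0 = c ∧ Adj b r0 c0 then 1 else 0
  have hA1 : ∀ r c, A r c = 1 ↔ ∃ r0 c0, e r0 = r ∧ e c0 = c ∧ Adj b r0 c0 := by
    intro r c
    simp only [A]
    split_ifs with h
    · exact ⟨fun _ => h, fun _ => rfl⟩
    · exact ⟨fun h' => absurd h' (by decide), fun h' => absurd h' h⟩
  have hA : ∀ r0 c0, A (e r0) (e c0) = 1 ↔ Adj b r0 c0 := by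
    intro r0 c0
    rw [hA1]
    constructor
    · rintro ⟨r1, c1, h1, h2, h3⟩
      rw [← e.injective h1, ← e.injective h2]; exact h3
    · intro h; exact ⟨r0, c0, rfl, rfl, h⟩
  refine ⟨A, fun B hB => ?_, ?_⟩
  · by_contra hlt
    push Not at hlt
    let R : Elt t (b * 2 ^ t) → Elt t (b * 2 ^ t) → Prop := fun r c => B (e r) (e c) = 1
    have hcard : (Finset.univ.filter fun p : Elt t (b * 2 ^ t) × Elt t (b * 2 ^ t) =>
        ¬ (R p.1 p.2 ↔ Adj b p.1 p.2)).card ≤ numDiff A B := by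
      unfold numDiff
      apply Finset.card_le_card_of_injOn (fun p => (e p.1, e p.2))
      · intro p hp
        simp only [Finset.coe_filter, Finset.mem_univ, true_and, Set.mem_ofPred_eq] at hp ⊢
        intro h
        apply hp
        rw [← hA, h]
      · intro p _ q _ h
        simp only [Prod.mk.injEq] at h
        exact Prod.ext (e.injective h.1) (e.injective h.2)
    obtain ⟨x, y, z, hR⟩ := exists_robust (b := b) R 
      (Nat.lt_of_le_of_lt (by convert hcard) hlt)
    obtain ⟨ρ, γ, h1, h2, h3⟩ := exists_copy_of_robust hR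
    have hmem : ((fun i => e (ρ i)), (fun i => e (γ i))) ∈ copies pat B :=
      ⟨fun i j h => e.strictMono (h1 h), fun i j h => e.strictMono (h2 h),
        fun i j => fin2_eq_one_iff.mpr (h3 i j)⟩
    unfold numCopies at hB
    rw [Set.ncard_eq_zero (Set.toFinite _)] at hB
    rw [hB] at hmem
    exact hmem
  · refine count_copies (k := 9) pat A 9
      (fun r c => ∃ r0 c0, e r0 = r ∧ e c0 = c ∧ blk t b t r0.pos.val = blk t b t c0.pos.val)
      (fun r => ?_) ?_
    · by_cases hr : ∃ r0, e r0 = r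
      · obtain ⟨r0, rfl⟩ := hr
        refine le_trans ?_ (card_blk t (b * 2 ^ t) b (blk t b t r0.pos.val) hb)
        refine le_trans (Finset.card_le_card ?_) (Finset.card_image_le (f := e))
        intro c hc
        simp only [Finset.mem_filter, Finset.mem_univ, true_and] at hc
        obtain ⟨r1, c1, h1, h2, h3⟩ := hc
        rw [Finset.mem_image]
        refine ⟨c1, ?_, h2⟩
        simp only [Finset.mem_filter, Finset.mem_univ, true_and]
        rw [← h3, e.injective h1]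
      · refine le_trans (Finset.card_le_card (t := ∅) ?_) (by simp)
        intro c hc
        simp only [Finset.mem_filter, Finset.mem_univ, true_and] at hc
        obtain ⟨r1, c1, h1, -⟩ := hc
        exact absurd ⟨r1, h1⟩ hr
    · rintro ⟨ρ, γ⟩ ⟨h1, h2, h3⟩
      simp only at h1 h2 h3 ⊢
      have hρ : ∀ i, ∃ r0, e r0 = ρ i := fun i => by
        obtain ⟨r0, -, h, -⟩ := (hA1 _ _).mp ((h3 i 0).trans (pat_zero_right i))
        exact ⟨r0, h⟩
      have hγ : ∀ i, ∃ c0, e c0 = γ i := fun i => by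
        obtain ⟨-, c0, -, h, -⟩ := (hA1 _ _).mp ((h3 0 i).trans (pat_zero_left i))
        exact ⟨c0, h⟩
      choose ρ0 hρ0 using hρ
      choose γ0 hγ0 using hγ
      have hc : IsCopy (Adj b) ρ0 γ0 := by
        refine ⟨fun i j h => ?_, fun i j h => ?_, fun i j => ?_⟩
        · rw [← e.lt_iff_lt, hρ0, hρ0]; exact h1 h
        · rw [← e.lt_iff_lt, hγ0, hγ0]; exact h2 h
        · rw [← hA, hρ0, hγ0, h3]
      exact ⟨ρ0 9, γ0 9, hρ0 9, hγ0 9, hc.blk_eq⟩

theorem quant (t n : ℕ) (hn : (42 * t + 44) * 2 ^ t ≤ n) :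
    ∃ A : Matrix (Fin n) (Fin n) (Fin 2),
      1 / (2 * (42 * (t : ℝ) + 44)) ^ 2 ≤ distFree pat A ∧
      (numCopies pat A : ℝ) ≤ (n : ℝ) ^ 20 / 2 ^ t := by
  have hL : 0 < (42 * t + 44) * 2 ^ t := by positivity
  set b := n / ((42 * t + 44) * 2 ^ t) with hbdef
  have hb : 0 < b := Nat.div_pos hn hL
  have h1 : (42 * t + 44) * (b * 2 ^ t) ≤ n := by
    have := Nat.div_mul_le_self n ((42 * t + 44) * 2 ^ t)
    rw [← hbdef] at this
    calc (42 * t + 44) * (b * 2 ^ t) = b * ((42 * t + 44) * 2 ^ t) := by ring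
      _ ≤ n := this
  have h2 : n ≤ 2 * (42 * t + 44) * (b * 2 ^ t) := by
    have := Nat.lt_mul_div_succ n hL
    rw [← hbdef] at this
    have h3 : (42 * t + 44) * 2 ^ t * (b + 1) ≤ (42 * t + 44) * 2 ^ t * (2 * b) :=
      Nat.mul_le_mul_left _ (by omega)
    calc n ≤ (42 * t + 44) * 2 ^ t * (2 * b) := by omega
      _ = 2 * (42 * t + 44) * (b * 2 ^ t) := by ring
  obtain ⟨A, hA1, hA2⟩ := exists_host t b n hb h1
  have hn0 : (0 : ℝ) < n := by exact_mod_cast hL.trans_le hn
  refine ⟨A, ?_, ?_⟩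
  · unfold distFree
    have hne : {d : ℕ | ∃ B : Matrix (Fin n) (Fin n) (Fin 2),
        numCopies pat B = 0 ∧ numDiff A B = d}.Nonempty := ⟨_, 0, zero_free n, rfl⟩
    obtain ⟨B, hB1, hB2⟩ := Nat.sInf_mem hne
    rw [← hB2, div_le_div_iff₀ (by positivity) (by positivity)]
    have h3 : (((b * 2 ^ t) ^ 2 : ℕ) : ℝ) ≤ numDiff A B := by exact_mod_cast hA1 B hB1
    have h4 : (n : ℝ) ≤ 2 * (42 * t + 44) * (b * 2 ^ t) := by exact_mod_cast h2
    push_cast at h3
    calc 1 * (n : ℝ) ^ 2 ≤ (2 * (42 * (t : ℝ) + 44) * ((b : ℝ) * 2 ^ t)) ^ 2 := by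
          rw [one_mul]; exact pow_le_pow_left₀ hn0.le h4 2
      _ = ((b : ℝ) * 2 ^ t) ^ 2 * (2 * (42 * (t : ℝ) + 44)) ^ 2 := by ring
      _ ≤ (numDiff A B : ℝ) * (2 * (42 * (t : ℝ) + 44)) ^ 2 := by gcongr
  · rw [le_div_iff₀ (by positivity)]
    have h3 : numCopies pat A * 2 ^ t ≤ n ^ 20 := by
      calc numCopies pat A * 2 ^ t ≤ n ^ 19 * ((42 * t + 44) * b) * 2 ^ t :=
            Nat.mul_le_mul_right _ hA2
        _ = n ^ 19 * ((42 * t + 44) * (b * 2 ^ t)) := by ring
        _ ≤ n ^ 19 * n := Nat.mul_le_mul_left _ h1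
        _ = n ^ 20 := by ring
    exact_mod_cast h3

theorem quant_eps (ε : ℝ) (h0 : 0 < ε) (h1 : ε ≤ 1 / 344 ^ 2) :
    ∃ n0 : ℕ, ∀ n ≥ n0, ∃ A : Matrix (Fin n) (Fin n) (Fin 2),
      ε ≤ distFree pat A ∧
      (numCopies pat A : ℝ) ≤ (2 : ℝ) ^ (-(1 / (168 * √ε))) * (n : ℝ) ^ 20 := by
  have hs : 0 < √ε := Real.sqrt_pos.mpr h0
  have hs1 : √ε ≤ 1 / 344 := by
    rw [Real.sqrt_le_iff]; constructor
    · norm_num
    · simpa using h1
  set w := 1 / √ε with hw
  have hw1 : 344 ≤ w := by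
    rw [hw, le_div_iff₀ hs]; linarith
  set t := ⌊(w / 2 - 44) / 42⌋₊ with ht
  have ht1 : (t : ℝ) ≤ (w / 2 - 44) / 42 := Nat.floor_le (by linarith)
  have ht2 : (w / 2 - 44) / 42 < t + 1 := Nat.lt_floor_add_one _
  refine ⟨(42 * t + 44) * 2 ^ t, fun n hn => ?_⟩
  obtain ⟨A, hA1, hA2⟩ := quant t n hn
  refine ⟨A, le_trans ?_ hA1, hA2.trans ?_⟩
  · have : ε = 1 / w ^ 2 := by
      rw [hw, div_pow, Real.sq_sqrt h0.le]; simp
    rw [this]
    apply one_div_le_one_div_of_le (by positivity)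
    apply pow_le_pow_left₀ (by positivity)
    linarith
  · rw [div_eq_mul_inv, mul_comm]
    apply mul_le_mul_of_nonneg_right _ (by positivity)
    rw [← Real.rpow_natCast, ← Real.rpow_neg (by norm_num)]
    apply Real.rpow_le_rpow_of_exponent_le (by norm_num)
    have : 1 / (168 * √ε) = w / 168 := by rw [hw]; field_simp
    rw [this]
    linarith

theorem not_poly (c C : ℝ) (hc : 0 < c) :
    ∃ n : ℕ, 1 ≤ n ∧ ∃ ε : ℝ, 0 < ε ∧ ε < 1 ∧ ∃ A : Matrix (Fin n) (Fin n) (Fin 2),
      ε ≤ distFree pat A ∧ (numCopies pat A : ℝ) < c * ε ^ C * (n : ℝ) ^ (2 * 10) := by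
  obtain ⟨K, hK⟩ := exists_nat_ge C
  have hlim := tendsto_pow_const_div_const_pow_of_one_lt (2 * K) (show (1 : ℝ) < 2 by norm_num)
  have hpos : (0 : ℝ) < c / 172 ^ (2 * K) := by positivity
  obtain ⟨t, ht1, ht2⟩ := ((hlim.eventually (gt_mem_nhds hpos)).and
    (Filter.eventually_ge_atTop 1)).exists
  have ht2' : (1 : ℝ) ≤ t := by exact_mod_cast ht2
  obtain ⟨n, hn⟩ : ∃ n, n = (42 * t + 44) * 2 ^ t := ⟨_, rfl⟩
  obtain ⟨A, hA1, hA2⟩ := quant t n hn.ge
  have hn0 : 0 < n := by rw [hn]; positivity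
  have hn0' : (0 : ℝ) < n := by exact_mod_cast hn0
  set ε : ℝ := 1 / (2 * (42 * (t : ℝ) + 44)) ^ 2 with hε
  have hε0 : 0 < ε := by positivity
  have hε1 : ε < 1 := by
    rw [hε, div_lt_one (by positivity)]
    nlinarith
  refine ⟨n, hn0, ε, hε0, hε1, A, hA1, hA2.trans_lt ?_⟩
  have h1 : ε ^ (K : ℝ) ≤ ε ^ C := Real.rpow_le_rpow_of_exponent_ge hε0 hε1.le hK
  rw [Real.rpow_natCast] at h1
  have h2 : 1 / (172 * (t : ℝ)) ^ (2 * K) ≤ ε ^ K := by
    rw [hε, pow_mul, ← one_div_pow]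
    apply pow_le_pow_left₀ (by positivity)
    apply one_div_le_one_div_of_le (by positivity)
    apply pow_le_pow_left₀ (by positivity)
    linarith
  have h3 : 1 / (2 : ℝ) ^ t < c * (1 / (172 * (t : ℝ)) ^ (2 * K)) := by
    rw [div_lt_div_iff₀ (by positivity) (by positivity)] at ht1
    rw [mul_one_div, div_lt_div_iff₀ (by positivity) (by positivity), mul_pow]
    linarith
  calc (n : ℝ) ^ 20 / 2 ^ t = 1 / (2 : ℝ) ^ t * (n : ℝ) ^ (2 * 10) := by ring
    _ < c * ε ^ C * (n : ℝ) ^ (2 * 10) := by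
      apply mul_lt_mul_of_pos_right _ (by positivity)
      refine h3.trans_le ?_
      exact mul_le_mul_of_nonneg_left (h2.trans h1) hc.le

end Vale.Agent.P037
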